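import Vale.Agent.P021.MathlibUsed

/-!
# 2-adic bounds for the moments of `(r-2)^s (r^2-8)^{-E}`
-/

set_option autoImplicit false

open Polynomial Finset

namespace Vale.Agent.P021.R2.H120

/-! ### the squared 2-adic norm -/

/-- the squared 2-adic norm -/
def nu (x : ℚ) : ℚ := (padicNorm 2 x) ^ 2

theorem nu_nonneg (x : ℚ) : 0 ≤ nu x := sq_nonneg _

theorem nu_mul (x y : ℚ) : nu (x * y) = nu x * nu y := by
  unfold nu
  rw [padicNorm.mul, mul_pow]

theorem nu_neg (x : ℚ) : nu (-x) = nu x := by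
  unfold nu
  rw [padicNorm.neg]

theorem nu_zero : nu 0 = 0 := by
  unfold nu
  rw [padicNorm.zero]
  norm_num

theorem nu_le_of {x B : ℚ} (h : padicNorm 2 x ≤ B) : nu x ≤ B ^ 2 :=
  pow_le_pow_left₀ (padicNorm.nonneg x) h 2

theorem nu_add {x y B : ℚ} (hx : nu x ≤ B) (hy : nu y ≤ B) : nu (x + y) ≤ B := by
  have h := padicNorm.nonarchimedean (p := 2) (q := x) (r := y)
  rcases le_max_iff.1 h with h1 | h1
  · exact (nu_le_of h1).trans hx
  · exact (nu_le_of h1).trans hy

theorem nu_sub {x y B : ℚ} (hx : nu x ≤ B) (hy : nu y ≤ B) : nu (x - y) ≤ B := by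
  rw [sub_eq_add_neg]
  exact nu_add hx (by rw [nu_neg]; exact hy)

theorem nu_sum {ι : Type*} (s : Finset ι) (F : ι → ℚ) {B : ℚ} (hB : 0 ≤ B)
    (h : ∀ i ∈ s, nu (F i) ≤ B) : nu (∑ i ∈ s, F i) ≤ B := by
  classical
  induction s using Finset.induction_on with
  | empty => rw [Finset.sum_empty, nu_zero]; exact hB
  | insert a s ha ih =>
    rw [Finset.sum_insert ha]
    exact nu_add (h a (Finset.mem_insert_self a s))
      (ih fun i hi => h i (Finset.mem_insert_of_mem hi))

theorem nu_int (z : ℤ) : nu z ≤ 1 := by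
  have h := nu_le_of (padicNorm.of_int (p := 2) z)
  rwa [one_pow] at h

theorem nu_nat (z : ℕ) : nu z ≤ 1 := by
  have h := nu_int z
  rwa [Int.cast_natCast] at h

theorem nu_two : nu 2 = 1 / 4 := by
  have h : padicNorm 2 (2 : ℚ) = 1 / 2 := by
    have := padicNorm.padicNorm_p (p := 2) (by norm_num)
    norm_num at this ⊢
    exact this
  unfold nu
  rw [h]
  norm_num

theorem nu_two_pow (k : ℕ) : nu (2 ^ k) = (1 / 4) ^ k := by
  induction k with
  | zero => unfold nu; simp
  | succ k ih => rw [pow_succ, nu_mul, ih, nu_two, pow_succ]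

theorem nu_four : nu 4 = 1 / 16 := by
  have := nu_two_pow 2
  norm_num at this
  rw [this]

theorem nu_eight : nu 8 = 1 / 64 := by
  have := nu_two_pow 3
  norm_num at this
  rw [this]

theorem nu_odd (z : ℤ) : nu (2 * z + 1) = 1 := by
  have h : padicNorm 2 ((2 * z + 1 : ℤ) : ℚ) = 1 := by
    rw [padicNorm.int_eq_one_iff]
    omega
  unfold nu
  have h2 : (2 * (z : ℚ) + 1) = ((2 * z + 1 : ℤ) : ℚ) := by push_cast; ring
  rw [h2, h, one_pow]

/-- an integer multiple does not increase the norm -/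
theorem nu_int_mul (z : ℤ) (x : ℚ) : nu (z * x) ≤ nu x := by
  rw [nu_mul]
  exact mul_le_of_le_one_left (nu_nonneg x) (nu_int z)

/-! ### factorials -/

theorem fact_lower (n e : ℕ) (h : n < 2 ^ e) : n ≤ padicValNat 2 n.factorial + e := by
  have h1 := sub_one_mul_padicValNat_factorial (p := 2) n
  have h2 : (Nat.digits 2 n).sum ≤ e := by
    have h3 : (Nat.digits 2 n).length ≤ e := by
      rw [Nat.digits_length_le_iff (by norm_num)]
      exact h
    have h4 : (Nat.digits 2 n).sum ≤ (Nat.digits 2 n).length • 1 := by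
      refine List.sum_le_card_nsmul _ _ fun x hx => ?_
      have := Nat.digits_lt_base (b := 2) (by norm_num) hx
      omega
    simp only [smul_eq_mul, mul_one] at h4
    omega
  omega

theorem norm_fact (k : ℕ) : padicNorm 2 (k.factorial : ℚ) ≤ 2 * ((k : ℚ) + 1) / 2 ^ k := by
  have h0 : (k.factorial : ℚ) ≠ 0 := by exact_mod_cast k.factorial_ne_zero
  rw [padicNorm.eq_zpow_of_nonzero h0]
  have h1 : padicValRat 2 (k.factorial : ℚ) = (padicValNat 2 k.factorial : ℤ) := by
    rw [padicValRat.of_nat]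
  rw [h1, zpow_neg, zpow_natCast]
  have h2 := fact_lower k (Nat.log 2 (k + 1) + 1) (by
    have := Nat.lt_pow_succ_log_self (b := 2) (by norm_num) (k + 1)
    rw [Nat.succ_eq_add_one] at this
    omega)
  have h3 : 2 ^ Nat.log 2 (k + 1) ≤ k + 1 := Nat.pow_log_le_self 2 (by omega)
  have h4 : (2 : ℚ) ^ k ≤ 2 ^ (padicValNat 2 k.factorial) * (2 * ((k : ℚ) + 1)) := by
    calc (2 : ℚ) ^ k ≤ 2 ^ (padicValNat 2 k.factorial + (Nat.log 2 (k + 1) + 1)) :=
          pow_le_pow_right₀ (by norm_num) h2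
      _ = 2 ^ (padicValNat 2 k.factorial) * (2 * (2 ^ Nat.log 2 (k + 1) : ℕ)) := by
          rw [pow_add, pow_succ]; push_cast; ring
      _ ≤ 2 ^ (padicValNat 2 k.factorial) * (2 * ((k : ℚ) + 1)) := by
          have : ((2 ^ Nat.log 2 (k + 1) : ℕ) : ℚ) ≤ ((k + 1 : ℕ) : ℚ) := by exact_mod_cast h3
          push_cast at this ⊢
          gcongr
  rw [inv_eq_one_div, Nat.cast_ofNat, div_le_div_iff₀ (by positivity) (by positivity)]
  linarith

/-! ### the base sequence -/

/-- coefficients of the base series in powers of `x = X - X²` -/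
def gk : ℕ → ℚ
  | 0 => 4
  | k + 1 => 32 * ((k : ℚ) + 1) * gk k / (2 * (k : ℚ) + 3)

/-- `gj (2k+1) = gk k`, `gj (2k) = 0` -/
def gj (j : ℕ) : ℚ := if Even j then 0 else gk (j / 2)

theorem gj_even {j : ℕ} (h : Even j) : gj j = 0 := by rw [gj, if_pos h]

theorem gj_odd (k : ℕ) : gj (2 * k + 1) = gk k := by
  rw [gj, if_neg (by simp)]
  congr 1
  omega

theorem gj_one : gj 1 = 4 := by
  have := gj_odd 0
  simpa [gk] using this

theorem gj_rec (j : ℕ) : ((j : ℚ) + 2) * gj (j + 2) = 16 * ((j : ℚ) + 1) * gj j := by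
  rcases Nat.even_or_odd' j with ⟨k, rfl | rfl⟩
  · have e1 : Even (2 * k) := ⟨k, by ring⟩
    have e2 : Even (2 * k + 2) := ⟨k + 1, by ring⟩
    rw [gj_even e1, gj_even e2]
    ring
  · rw [show 2 * k + 1 + 2 = 2 * (k + 1) + 1 by ring, gj_odd, gj_odd, gk]
    have : (2 * (k : ℚ) + 3) ≠ 0 := by positivity
    push_cast
    field_simp
    ring

theorem norm_gk (k : ℕ) : padicNorm 2 (gk k) = padicNorm 2 (4 * 32 ^ k * (k.factorial : ℚ)) := by
  induction k with
  | zero => simp [gk]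
  | succ k ih =>
    have h3 : padicNorm 2 (2 * (k : ℚ) + 3) = 1 := by
      have h : padicNorm 2 ((2 * k + 3 : ℕ) : ℚ) = 1 := by
        rw [padicNorm.nat_eq_one_iff]
        omega
      push_cast at h
      exact h
    rw [gk, padicNorm.div, h3, div_one, padicNorm.mul, ih, ← padicNorm.mul]
    congr 1
    rw [Nat.factorial_succ]
    push_cast
    ring

theorem nu_gj (j : ℕ) : nu (gj j) ≤ 4 * ((j : ℚ) + 1) ^ 2 / 64 ^ j := by
  rcases Nat.even_or_odd' j with ⟨k, rfl | rfl⟩
  · rw [gj_even (by simp), nu_zero]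
    positivity
  · rw [gj_odd]
    have h1 : padicNorm 2 (gk k) ≤ 2 * (((2 * k + 1 : ℕ) : ℚ) + 1) / 8 ^ (2 * k + 1) := by
      rw [norm_gk, padicNorm.mul]
      have h2 : padicNorm 2 (4 * 32 ^ k : ℚ) = 1 / (4 * 32 ^ k) := by
        have h3 : (4 * 32 ^ k : ℚ) = ((2 : ℕ) : ℚ) ^ (2 + 5 * k) := by
          rw [pow_add, pow_mul]; norm_num
        rw [h3]
        have h4 : ∀ m : ℕ, padicNorm 2 (((2 : ℕ) : ℚ) ^ m) = (((2 : ℕ) : ℚ) ^ m)⁻¹ := by
          intro m
          induction m with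
          | zero => simp
          | succ m ih =>
            rw [pow_succ, padicNorm.mul, ih, padicNorm.padicNorm_p (by norm_num), mul_inv]
        rw [h4, one_div]
      rw [h2]
      have h3 := norm_fact k
      calc 1 / (4 * 32 ^ k) * padicNorm 2 (k.factorial : ℚ)
          ≤ 1 / (4 * 32 ^ k) * (2 * ((k : ℚ) + 1) / 2 ^ k) := by gcongr
        _ = 2 * (((2 * k + 1 : ℕ) : ℚ) + 1) / 8 ^ (2 * k + 1) := by
            have h5 : (8 : ℚ) ^ (2 * k + 1) = 8 * (32 ^ k * 2 ^ k) := by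
              rw [pow_succ, pow_mul, ← mul_pow]; norm_num; ring
            rw [h5]
            have h6 : (32 : ℚ) ^ k ≠ 0 := by positivity
            have h7 : (2 : ℚ) ^ k ≠ 0 := by positivity
            push_cast
            field_simp
            ring
    have h2 := nu_le_of h1
    refine h2.trans (le_of_eq ?_)
    rw [div_pow, ← pow_mul, mul_comm (2 * k + 1) 2, pow_mul]
    norm_num
    ring

/-- `x' x^j` with `x = X - X²` -/
noncomputable def Qj (j : ℕ) : ℤ[X] := (1 - 2 * X) * (X - X ^ 2) ^ j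

theorem Qj_ode (j : ℕ) : (1 + 4 * X - 4 * X ^ 2) * derivative (Qj (j + 1)) +
    (2 - 4 * X) * Qj (j + 1) = C ((j : ℤ) + 1) * (X - X ^ 2) ^ j -
      C (16 * ((j : ℤ) + 2)) * (X - X ^ 2) ^ (j + 2) := by
  rw [Qj]
  simp only [derivative_mul, derivative_sub, derivative_one, derivative_X, derivative_pow,
    derivative_ofNat, Nat.add_sub_cancel]
  simp only [map_add, map_mul, map_natCast, map_one, map_ofNat, Nat.cast_add, Nat.cast_one]
  ring

theorem Qj_ode_zero : (1 + 4 * X - 4 * X ^ 2) * derivative (Qj 0) +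
    (2 - 4 * X) * Qj 0 = - C 16 * (X - X ^ 2) := by
  rw [Qj]
  simp only [derivative_mul, derivative_sub, derivative_one, derivative_X, derivative_ofNat,
    pow_zero, mul_one, map_ofNat]
  ring

theorem coeff_lin (P : ℤ[X]) (n : ℕ) :
    ((1 + 4 * X - 4 * X ^ 2) * derivative P + (2 - 4 * X) * P).coeff (n + 1) =
    ((n : ℤ) + 2) * P.coeff (n + 2) + (4 * n + 6) * P.coeff (n + 1) - 4 * (n + 1) * P.coeff n := by
  have h1 : ((1 + 4 * X - 4 * X ^ 2) * derivative P + (2 - 4 * X) * P : ℤ[X]) =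
      derivative P + C 4 * (X * derivative P) - C 4 * (X ^ 2 * derivative P) + C 2 * P -
        C 4 * (X * P) := by
    simp only [map_ofNat]
    ring
  rw [h1]
  simp only [coeff_add, coeff_sub, coeff_C_mul]
  rw [coeff_X_mul, coeff_X_mul, coeff_derivative, coeff_derivative]
  have h2 : (X ^ 2 * derivative P).coeff (n + 1) = n * P.coeff n := by
    rcases n with _ | n
    · rw [coeff_X_pow_mul']
      simp
    · rw [show n + 1 + 1 = n + 2 by ring, coeff_X_pow_mul, coeff_derivative]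
      push_cast
      ring
  rw [h2]
  push_cast
  ring

theorem coeff_pow_zero {j n : ℕ} (h : n < j) : ((X - X ^ 2 : ℤ[X]) ^ j).coeff n = 0 := by
  have h1 : (X - X ^ 2 : ℤ[X]) ^ j = X ^ j * (1 - X) ^ j := by rw [← mul_pow]; ring
  rw [h1, coeff_X_pow_mul', if_neg (by omega)]

theorem coeff_Qj_zero {j n : ℕ} (h : n < j) : (Qj j).coeff n = 0 := by
  have h1 : Qj j = X ^ j * ((1 - X) ^ j * (1 - 2 * X)) := by
    rw [Qj, show (X - X ^ 2 : ℤ[X]) = X * (1 - X) by ring, mul_pow]
    ring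
  rw [h1, coeff_X_pow_mul', if_neg (by omega)]

theorem coeff_Qj_zero' {j n : ℕ} (h : 2 * j + 1 < n) : (Qj j).coeff n = 0 := by
  refine coeff_eq_zero_of_natDegree_lt (lt_of_le_of_lt ?_ h)
  have h1 : (1 - 2 * X : ℤ[X]).natDegree ≤ 1 := by compute_degree
  have h2 : (X - X ^ 2 : ℤ[X]).natDegree ≤ 2 := by compute_degree
  have h3 := natDegree_pow_le_of_le j h2
  have h4 := natDegree_mul_le_of_le h1 h3
  rw [Qj]
  omega

/-- the base sequence in closed form -/
noncomputable def mu0 (n : ℕ) : ℚ := ∑ j ∈ range (n + 1), gj j * ((Qj j).coeff n : ℚ)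

theorem mu0_ext {n N : ℕ} (h : n < N) : mu0 n = ∑ j ∈ range N, gj j * ((Qj j).coeff n : ℚ) := by
  rw [mu0]
  refine Finset.sum_subset (Finset.range_subset_range.2 (by omega)) fun j _ hj => ?_
  rw [Finset.mem_range, not_lt] at hj
  rw [coeff_Qj_zero (by omega), Int.cast_zero, mul_zero]

theorem mu0_zero : mu0 0 = 0 := by
  rw [mu0]
  simp [gj_even]

theorem mu0_one : mu0 1 = 4 := by
  rw [mu0, Finset.sum_range_succ, Finset.sum_range_one, gj_even (by simp), gj_one]
  have : (Qj 1).coeff 1 = 1 := by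
    have h1 : Qj 1 = X - C 3 * X ^ 2 + C 2 * X ^ 3 := by
      rw [Qj]; simp only [map_ofNat]; ring
    rw [h1]
    simp [coeff_X]
  rw [this]
  norm_num

theorem mu0_rec (n : ℕ) : ((n : ℚ) + 2) * mu0 (n + 2) + (4 * n + 6) * mu0 (n + 1) -
    4 * (n + 1) * mu0 n = 0 := by
  have hcoef : ∀ j : ℕ, ((n : ℚ) + 2) * ((Qj (j + 1)).coeff (n + 2) : ℚ) +
      (4 * n + 6) * ((Qj (j + 1)).coeff (n + 1) : ℚ) -
      4 * (n + 1) * ((Qj (j + 1)).coeff n : ℚ) =
      ((j : ℚ) + 1) * (((X - X ^ 2 : ℤ[X]) ^ j).coeff (n + 1) : ℚ) -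
      16 * ((j : ℚ) + 2) * (((X - X ^ 2 : ℤ[X]) ^ (j + 2)).coeff (n + 1) : ℚ) := by
    intro j
    have h1 := coeff_lin (Qj (j + 1)) n
    rw [Qj_ode, coeff_sub, coeff_C_mul, coeff_C_mul] at h1
    have h2 := congrArg (fun z : ℤ => (z : ℚ)) h1
    push_cast at h2
    linarith
  rw [mu0_ext (n := n) (N := n + 3) (by omega), mu0_ext (n := n + 1) (N := n + 3) (by omega),
    mu0_ext (n := n + 2) (N := n + 3) (by omega)]
  have hs : ∀ F : ℕ → ℚ, ∑ i ∈ range (n + 3), F i = ∑ i ∈ range (n + 2), F (i + 1) + F 0 :=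
    fun F => Finset.sum_range_succ' F (n + 2)
  rw [hs, hs, hs, gj_even (by simp : Even 0)]
  simp only [zero_mul, add_zero]
  rw [Finset.mul_sum, Finset.mul_sum, Finset.mul_sum, ← Finset.sum_add_distrib,
    ← Finset.sum_sub_distrib]
  have h1 : ∀ j ∈ range (n + 2), ((n : ℚ) + 2) * (gj (j + 1) * ((Qj (j + 1)).coeff (n + 2) : ℚ)) +
      (4 * n + 6) * (gj (j + 1) * ((Qj (j + 1)).coeff (n + 1) : ℚ)) -
      4 * (n + 1) * (gj (j + 1) * ((Qj (j + 1)).coeff n : ℚ)) =
      gj (j + 1) * ((j : ℚ) + 1) * (((X - X ^ 2 : ℤ[X]) ^ j).coeff (n + 1) : ℚ) -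
      gj (j + 3) * ((j : ℚ) + 3) * (((X - X ^ 2 : ℤ[X]) ^ (j + 2)).coeff (n + 1) : ℚ) := by
    intro j _
    have h2 := hcoef j
    have h3 := gj_rec (j + 1)
    push_cast at h3
    rw [show j + 1 + 2 = j + 3 by ring] at h3
    linear_combination gj (j + 1) * h2 +
      (((X - X ^ 2 : ℤ[X]) ^ (j + 2)).coeff (n + 1) : ℚ) * h3
  rw [Finset.sum_congr rfl h1]
  set G : ℕ → ℚ := fun j => gj (j + 1) * ((j : ℚ) + 1) *
    (((X - X ^ 2 : ℤ[X]) ^ j).coeff (n + 1) : ℚ) with hG
  have h2 : ∀ j ∈ range (n + 2), gj (j + 1) * ((j : ℚ) + 1) *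
      (((X - X ^ 2 : ℤ[X]) ^ j).coeff (n + 1) : ℚ) -
      gj (j + 3) * ((j : ℚ) + 3) * (((X - X ^ 2 : ℤ[X]) ^ (j + 2)).coeff (n + 1) : ℚ) =
      (G j + G (j + 1)) - (G (j + 1) + G (j + 2)) := by
    intro j _
    simp only [hG]
    push_cast
    ring
  rw [Finset.sum_congr rfl h2, Finset.sum_range_sub' (fun j => G j + G (j + 1))]
  have h0 : G 0 = 0 := by simp [hG, coeff_one]
  have h01 : G 1 = 0 := by
    simp only [hG]
    rw [gj_even (by decide : Even (1 + 1))]
    ring
  have hn2 : G (n + 2) = 0 := by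
    simp only [hG]
    rw [coeff_pow_zero (by omega)]
    simp
  have hn3 : G (n + 2 + 1) = 0 := by
    simp only [hG]
    rw [coeff_pow_zero (by omega)]
    simp
  rw [h0, hn2, hn3]
  simp only [zero_add, h01]
  norm_num

theorem nu_mu0 (n : ℕ) : nu (mu0 n) ≤ 32 * ((n : ℚ) + 1) ^ 2 / 8 ^ n := by
  rw [mu0]
  refine nu_sum _ _ (by positivity) fun j hj => ?_
  rw [Finset.mem_range] at hj
  by_cases h : 2 * j + 1 < n
  · rw [coeff_Qj_zero' h, Int.cast_zero, mul_zero, nu_zero]
    positivity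
  · rw [nu_mul]
    have h1 := nu_gj j
    have h2 := nu_int ((Qj j).coeff n)
    have h3 : nu (gj j) * nu ((Qj j).coeff n : ℚ) ≤ nu (gj j) :=
      mul_le_of_le_one_right (nu_nonneg _) h2
    refine h3.trans (h1.trans ?_)
    rw [div_le_div_iff₀ (by positivity) (by positivity)]
    have h4 : (8 : ℚ) ^ n ≤ 8 * 64 ^ j := by
      have : (8 : ℚ) * 64 ^ j = 8 ^ (2 * j + 1) := by
        rw [pow_succ, pow_mul]; norm_num; ring
      rw [this]
      exact pow_le_pow_right₀ (by norm_num) (by omega)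
    have h5 : ((j : ℚ) + 1) ^ 2 ≤ ((n : ℚ) + 1) ^ 2 := by
      have : (j : ℚ) ≤ n := by exact_mod_cast (by omega : j ≤ n)
      gcongr
    calc 4 * ((j : ℚ) + 1) ^ 2 * 8 ^ n ≤ 4 * ((n : ℚ) + 1) ^ 2 * (8 * 64 ^ j) := by gcongr
      _ = 32 * ((n : ℚ) + 1) ^ 2 * 64 ^ j := by ring

/-! ### the family -/

/-- the relations of `u E s = B((r-2)^s (r^2-8)^(-E))` -/
structure Rel (u : ℕ → ℕ → ℚ) : Prop where
  mul : ∀ E s, u (E + 1) (s + 2) + 4 * u (E + 1) (s + 1) - 4 * u (E + 1) s = u E s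
  ftc : ∀ E s : ℕ, ((s : ℚ) + 2 - 2 * E) * u E (s + 2) +
    (4 * (s + 1) + 2 - 4 * E) * u E (s + 1) - 4 * (s + 1) * u E s = 0
  ini : ∀ E : ℕ, (1 - 2 * (E : ℚ)) * (u E 1 + 2 * u E 0) = 4 * (-4) ^ (-(E : ℤ))
  zero : u 0 0 = 0

/-- the bound -/
def bnd (E s : ℕ) : ℚ := 32 * ((s : ℚ) + 5) ^ 2 * 16 ^ E / 8 ^ s

theorem bnd_pos (E s : ℕ) : 0 < bnd E s := by unfold bnd; positivity

theorem bnd_succ (E s : ℕ) : bnd (E + 1) s = 16 * bnd E s := by
  unfold bnd
  rw [pow_succ]
  ring

theorem Rel.base {u : ℕ → ℕ → ℚ} (h : Rel u) : ∀ s, u 0 s = mu0 s := by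
  intro s
  induction s using Nat.twoStepInduction with
  | zero => rw [h.zero, mu0_zero]
  | one =>
    have h1 := h.ini 0
    rw [h.zero] at h1
    rw [mu0_one]
    norm_num at h1
    exact h1
  | more s ih1 ih2 =>
    have h1 := h.ftc 0 s
    have h2 := mu0_rec s
    rw [ih1, ih2] at h1
    have h3 : ((s : ℚ) + 2) ≠ 0 := by positivity
    have h4 : ((s : ℚ) + 2) * (u 0 (s + 2) - mu0 (s + 2)) = 0 := by
      push_cast at h1
      linear_combination h1 - h2
    rcases mul_eq_zero.1 h4 with h5 | h5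
    · exact absurd h5 h3
    · linarith

theorem Rel.r2 {u : ℕ → ℕ → ℚ} (h : Rel u) (E k : ℕ) :
    8 * ((2 * E + 1) * u (E + 1) (k + 1)) =
      2 * (((k : ℚ) + 1) * u E k) + ((k : ℚ) + 1 - 2 * E) * u E (k + 1) := by
  have h1 := h.mul E k
  have h2 := h.mul E (k + 1)
  have h3 := h.ftc (E + 1) k
  have h4 := h.ftc (E + 1) (k + 1)
  push_cast at h3 h4
  rw [show k + 1 + 2 = k + 3 by ring, show k + 1 + 1 = k + 2 by ring] at h2 h4
  linear_combination 2 * ((k : ℚ) + 1) * h1 + ((k : ℚ) + 1 - 2 * E) * h2 - h4 - 2 * h3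

theorem Rel.r20 {u : ℕ → ℕ → ℚ} (h : Rel u) (E : ℕ) :
    8 * ((2 * E + 1) * u (E + 1) 0) =
      2 * (-(E : ℚ) * u E 0) - 8 * (-4) ^ (-((E + 1 : ℕ) : ℤ)) := by
  have h1 := h.mul E 0
  have h3 := h.ftc (E + 1) 0
  have h4 := h.ini (E + 1)
  generalize (-4 : ℚ) ^ (-((E + 1 : ℕ) : ℤ)) = w at h4 ⊢
  push_cast at h1 h3 h4 ⊢
  linear_combination -2 * (E : ℚ) * h1 - h3 - 2 * h4

theorem nu_odd_nat (E : ℕ) : nu (2 * (E : ℚ) + 1) = 1 := by
  have := nu_odd (E : ℤ)
  rwa [Int.cast_natCast] at this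

theorem Rel.weak {u : ℕ → ℕ → ℚ} (h : Rel u) : ∀ E s, nu (u E s) ≤ 8 ^ E * bnd E s := by
  intro E
  induction E with
  | zero =>
    intro s
    rw [h.base, pow_zero, one_mul]
    refine (nu_mu0 s).trans ?_
    unfold bnd
    rw [pow_zero, mul_one]
    gcongr
    norm_num
  | succ E ih =>
    intro s
    rcases s with _ | k
    · have h1 := h.r20 E
      have h2 : nu (8 * ((2 * E + 1) * u (E + 1) 0)) = nu (u (E + 1) 0) / 64 := by
        rw [nu_mul, nu_mul, nu_eight, nu_odd_nat]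
        ring
      have h3 : nu (2 * (-(E : ℚ) * u E 0)) ≤ nu (u E 0) / 4 := by
        rw [nu_mul, nu_two]
        have : nu (-(E : ℚ) * u E 0) ≤ nu (u E 0) := by
          have := nu_int_mul (-(E : ℤ)) (u E 0)
          push_cast at this
          exact this
        linarith
      have h4 : nu (8 * (-4) ^ (-((E + 1 : ℕ) : ℤ))) = 16 ^ (E + 1) / 64 := by
        have h5 : nu ((-4 : ℚ) ^ (-((E + 1 : ℕ) : ℤ))) = 16 ^ (E + 1) := by
          have h6 : nu ((-4 : ℚ) ^ (-((E + 1 : ℕ) : ℤ)) * (2 ^ (2 * (E + 1)))) = 1 := by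
            have h7 : (-4 : ℚ) ^ (-((E + 1 : ℕ) : ℤ)) * (2 ^ (2 * (E + 1))) = (-1) ^ (E + 1) := by
              rw [zpow_neg, zpow_natCast, pow_mul]
              have h8 : (-4 : ℚ) ^ (E + 1) = (-1) ^ (E + 1) * 4 ^ (E + 1) := by
                rw [← mul_pow]; norm_num
              rw [h8, mul_inv, mul_assoc, ← inv_pow (-1 : ℚ)]
              norm_num
            rw [h7]
            unfold nu
            rcases neg_one_pow_eq_or ℚ (E + 1) with h8 | h8
            · rw [h8]; simp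
            · rw [h8]; simp
          rw [nu_mul, nu_two_pow, pow_mul] at h6
          have h9 : ((1 / 4 : ℚ) ^ 2) ^ (E + 1) * 16 ^ (E + 1) = 1 := by
            rw [← mul_pow]; norm_num
          calc nu ((-4 : ℚ) ^ (-((E + 1 : ℕ) : ℤ))) =
              nu ((-4 : ℚ) ^ (-((E + 1 : ℕ) : ℤ))) * (((1 / 4 : ℚ) ^ 2) ^ (E + 1) *
                16 ^ (E + 1)) := by rw [h9, mul_one]
            _ = 16 ^ (E + 1) := by rw [← mul_assoc, h6, one_mul]
        rw [nu_mul, h5, nu_eight]
        ring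
      have h5 : nu (u (E + 1) 0) / 64 ≤ 8 ^ E * bnd E 0 / 4 := by
        rw [← h2, h1]
        refine nu_sub (h3.trans ?_) (h4.le.trans ?_)
        · have := ih 0
          linarith
        · unfold bnd
          have h6 : (1 : ℚ) ≤ 8 ^ E := one_le_pow₀ (by norm_num)
          have h7 : (0 : ℚ) < 16 ^ E := by positivity
          push_cast
          rw [pow_succ, pow_zero, div_one]
          nlinarith
      rw [bnd_succ, pow_succ]
      have h6 : 0 < 8 ^ E * bnd E 0 := mul_pos (by positivity) (bnd_pos _ _)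
      linarith
    · have h1 := h.r2 E k
      have h2 : nu (8 * ((2 * E + 1) * u (E + 1) (k + 1))) = nu (u (E + 1) (k + 1)) / 64 := by
        rw [nu_mul, nu_mul, nu_eight, nu_odd_nat]
        ring
      have h3 : nu (2 * (((k : ℚ) + 1) * u E k)) ≤ nu (u E k) / 4 := by
        rw [nu_mul, nu_two]
        have : nu (((k : ℚ) + 1) * u E k) ≤ nu (u E k) := by
          have := nu_int_mul ((k : ℤ) + 1) (u E k)
          push_cast at this
          exact this
        linarith
      have h4 : nu (((k : ℚ) + 1 - 2 * E) * u E (k + 1)) ≤ nu (u E (k + 1)) := by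
        have := nu_int_mul ((k : ℤ) + 1 - 2 * E) (u E (k + 1))
        push_cast at this
        exact this
      have h5 : nu (u (E + 1) (k + 1)) / 64 ≤ 2 * (8 ^ E * bnd E (k + 1)) := by
        rw [← h2, h1]
        refine nu_add (h3.trans ?_) (h4.trans ?_)
        · have h6 := ih k
          have h7 : bnd E k ≤ 8 * bnd E (k + 1) := by
            unfold bnd
            rw [pow_succ (8 : ℚ) k]
            have h8 : (0 : ℚ) < 8 ^ k := by positivity
            have h9 : (0 : ℚ) < 16 ^ E := by positivity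
            rw [mul_div_assoc', div_le_div_iff₀ h8 (by positivity)]
            have h10 : ((k : ℚ) + 5) ^ 2 ≤ (((k + 1 : ℕ) : ℚ) + 5) ^ 2 := by
              push_cast
              gcongr
              linarith
            have h11 := mul_le_mul_of_nonneg_left h10
              (by positivity : (0 : ℚ) ≤ 32 * 16 ^ E * 8 * 8 ^ k)
            linarith
          have h8 := mul_le_mul_of_nonneg_left h7 (by positivity : (0 : ℚ) ≤ 8 ^ E)
          linarith
        · have h6 := ih (k + 1)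
          have h7 : 0 < 8 ^ E * bnd E (k + 1) := mul_pos (by positivity) (bnd_pos _ _)
          linarith
      rw [bnd_succ, pow_succ]
      linarith

theorem bnd_one (E s : ℕ) : bnd E (s + 1) ≤ bnd E s / 4 := by
  unfold bnd
  rw [pow_succ (8 : ℚ) s, div_div, div_le_div_iff₀ (by positivity) (by positivity)]
  have h1 : (((s + 1 : ℕ) : ℚ) + 5) ^ 2 ≤ 2 * ((s : ℚ) + 5) ^ 2 := by
    push_cast
    nlinarith [(Nat.cast_nonneg s : (0 : ℚ) ≤ s)]
  have h2 := mul_le_mul_of_nonneg_left h1 (by positivity : (0 : ℚ) ≤ 32 * 16 ^ E * 8 ^ s * 4)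
  linarith

theorem bnd_two (E s : ℕ) : bnd E (s + 2) ≤ bnd E s / 32 := by
  unfold bnd
  rw [pow_add (8 : ℚ) s 2, div_div, div_le_div_iff₀ (by positivity) (by positivity)]
  have h1 : (((s + 2 : ℕ) : ℚ) + 5) ^ 2 ≤ 2 * ((s : ℚ) + 5) ^ 2 := by
    push_cast
    nlinarith [(Nat.cast_nonneg s : (0 : ℚ) ≤ s)]
  have h2 := mul_le_mul_of_nonneg_left h1 (by positivity : (0 : ℚ) ≤ 32 * 16 ^ E * 8 ^ s * 32)
  linarith

theorem bnd_anti (E s l : ℕ) : bnd E (s + l) ≤ bnd E s := by
  induction l with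
  | zero => exact le_rfl
  | succ l ih =>
    have h1 := bnd_one E (s + l)
    have h2 := bnd_pos E (s + l)
    rw [← add_assoc]
    linarith

/-- **2-adic bound for the moments** -/
theorem Rel.strong {u : ℕ → ℕ → ℚ} (h : Rel u) : ∀ E s, nu (u E s) ≤ bnd E s := by
  intro E
  induction E with
  | zero =>
    intro s
    have := h.weak 0 s
    rwa [pow_zero, one_mul] at this
  | succ E ih =>
    have key : ∀ m s, nu (u (E + 1) s) ≤ max (8 ^ (E + 1) / 2 ^ m) 1 * bnd (E + 1) s := by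
      intro m
      induction m with
      | zero =>
        intro s
        rw [pow_zero, div_one]
        refine (h.weak (E + 1) s).trans ?_
        have := bnd_pos (E + 1) s
        gcongr
        exact le_max_left _ _
      | succ m ihm =>
        intro s
        set F : ℚ := max (8 ^ (E + 1) / 2 ^ m) 1 with hF
        set F' : ℚ := max (8 ^ (E + 1) / 2 ^ (m + 1)) 1 with hF'
        have hF1 : 1 ≤ F := le_max_right _ _
        have hF2 : F / 2 ≤ F' := by
          rcases le_total (8 ^ (E + 1) / 2 ^ m : ℚ) 1 with h1 | h1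
          · rw [hF, max_eq_right h1]
            have : (1 : ℚ) ≤ F' := le_max_right _ _
            linarith
          · rw [hF, max_eq_left h1]
            refine le_trans (le_of_eq ?_) (le_max_left _ _)
            rw [pow_succ (2 : ℚ) m, div_div]
        have hF3 : 1 ≤ F' := le_max_right _ _
        have hb := bnd_pos (E + 1) s
        have h1 := h.mul E s
        have h2 : nu (4 * u (E + 1) s) = nu (u (E + 1) s) / 16 := by
          rw [nu_mul, nu_four]
          ring
        have h3 : 4 * u (E + 1) s = u (E + 1) (s + 2) + 4 * u (E + 1) (s + 1) - u E s := by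
          linear_combination -h1
        have h4 : nu (4 * u (E + 1) s) ≤ F' * bnd (E + 1) s / 16 := by
          rw [h3]
          refine nu_sub (nu_add ?_ ?_) ?_
          · have h5 := ihm (s + 2)
            have h6 := bnd_two (E + 1) s
            have h7 := mul_le_mul_of_nonneg_left h6 (by linarith : (0 : ℚ) ≤ F)
            have h8 := mul_le_mul_of_nonneg_right hF2 hb.le
            linarith
          · have h5 := ihm (s + 1)
            have h6 := bnd_one (E + 1) s
            have h7 := mul_le_mul_of_nonneg_left h6 (by linarith : (0 : ℚ) ≤ F)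
            have h8 := mul_le_mul_of_nonneg_right hF2 hb.le
            rw [nu_mul, nu_four]
            have h9 : 0 ≤ F * bnd (E + 1) s := mul_nonneg (by linarith) hb.le
            linarith
          · have h5 := ih s
            rw [bnd_succ]
            have h6 := mul_le_mul_of_nonneg_right hF3 (bnd_pos E s).le
            linarith
        rw [h2] at h4
        linarith
    intro s
    have h1 := key (3 * (E + 1)) s
    have h2 : (8 : ℚ) ^ (E + 1) / 2 ^ (3 * (E + 1)) = 1 := by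
      rw [pow_mul]
      norm_num
    rw [h2, max_self, one_mul] at h1
    exact h1

end Vale.Agent.P021.R2.H120
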