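import Vale.Agent.P021.R2.H542.NN
import Vale.Agent.P021.R2.H120.Seq

/-!
# The prime 2 in the rational determinants of the `c = 2` family
-/

set_option autoImplicit false

open Polynomial Finset Filter

namespace Vale.Agent.P021.R2.H120

open Vale.Agent.P021.R2.H636 Vale.Agent.P021.R2.H542

/-! ### the moments of the rational part -/

/-- rational part of the moment of `(r-2)^s (r^2-8)^{-E}` -/
noncomputable def uu (E s : ℕ) : ℚ := LE 0 1 E ((X - C 2) ^ s) / 2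

theorem uu_real (E s : ℕ) : ((uu E s : ℚ) : ℝ) = Lam 0 E ((X - C 2) ^ s) := by
  have h := LE_real 0 1 one_pos E ((X - C 2) ^ s)
  rw [Polynomial.map_pow, Polynomial.map_sub, map_X, map_C] at h
  have h2 : (Int.castRingHom ℝ) 2 = 2 := by simp
  rw [h2] at h
  rw [uu, Rat.cast_div, h]
  simp

theorem rel_uu : Rel uu where
  mul E s := by
    have h := Lam_mul_Q 0 E ((X - C 2) ^ s)
    have h1 : (X ^ 2 - C 8 : ℝ[X]) * (X - C 2) ^ s = (X - C 2) ^ (s + 2) +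
        (4 : ℝ) • (X - C 2) ^ (s + 1) - (4 : ℝ) • (X - C 2) ^ s := by
      rw [smul_eq_C_mul, smul_eq_C_mul]
      have e2 : (C (2 : ℝ) : ℝ[X]) = 2 := rfl
      have e4 : (C (4 : ℝ) : ℝ[X]) = 4 := rfl
      have e8 : (C (8 : ℝ) : ℝ[X]) = 8 := rfl
      rw [e2, e4, e8]
      ring
    rw [h1, map_sub, map_add, map_smul, map_smul, ← uu_real, ← uu_real, ← uu_real, ← uu_real,
      smul_eq_mul, smul_eq_mul] at h
    exact_mod_cast h
  ftc E s := by
    have h := Lam_ftc 0 E ((X - C 2) ^ (s + 1))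
    have h1 : derivative ((X - C 2 : ℝ[X]) ^ (s + 1)) * (X ^ 2 - C 8) +
        C (1 - 2 * (E : ℝ)) * X * (X - C 2) ^ (s + 1) =
        ((s : ℝ) + 2 - 2 * E) • (X - C 2) ^ (s + 2) +
        (4 * ((s : ℝ) + 1) + 2 - 4 * E) • (X - C 2) ^ (s + 1) -
        (4 * ((s : ℝ) + 1)) • (X - C 2) ^ s := by
      rw [smul_eq_C_mul, smul_eq_C_mul, smul_eq_C_mul, derivative_X_sub_C_pow]
      simp only [Nat.cast_add, Nat.cast_one, Nat.add_sub_cancel, map_sub, map_add, map_mul,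
        map_one, map_natCast, map_ofNat]
      ring
    rw [h1, map_sub, map_add, map_smul, map_smul, map_smul, ← uu_real, ← uu_real, ← uu_real,
      smul_eq_mul, smul_eq_mul, smul_eq_mul, eval_pow, eval_sub, eval_X, eval_C, sub_self,
      zero_pow (by omega), mul_zero] at h
    exact_mod_cast h
  ini E := by
    have h := Lam_ftc 0 E 1
    have h1 : derivative (1 : ℝ[X]) * (X ^ 2 - C 8) + C (1 - 2 * (E : ℝ)) * X * 1 =
        (1 - 2 * (E : ℝ)) • ((X - C 2) ^ 1 + (2 : ℝ) • (X - C 2) ^ 0) := by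
      rw [smul_eq_C_mul, smul_eq_C_mul]
      simp only [derivative_one, map_sub, map_mul, map_one, map_natCast, map_ofNat]
      ring
    rw [h1, map_smul, map_add, map_smul, ← uu_real, ← uu_real, smul_eq_mul, smul_eq_mul,
      eval_one, mul_one] at h
    have h2 : ((((1 - 2 * (E : ℚ)) * (uu E 1 + 2 * uu E 0) : ℚ)) : ℝ) =
        ((4 * (-4) ^ (-(E : ℤ)) : ℚ) : ℝ) := by
      push_cast
      exact h
    exact_mod_cast h2
  zero := by
    rw [uu, pow_zero, ← pow_zero (X : ℤ[X]), LE_X_pow, cK_nat]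
    have := mB_zero_zero
    simp only [Nat.cast_zero, neg_zero] at this ⊢
    rw [this]
    norm_num

theorem nu_uu (E s : ℕ) : nu (uu E s) ≤ bnd E s := rel_uu.strong E s

/-! ### the integral part -/

theorem apos_eq (e : ℕ) : apos e = (-2) ^ e * (Nat.centralBinom e : ℚ) := by
  induction e with
  | zero => simp [apos]
  | succ e ih =>
    have h1 : ((e : ℚ) + 1) * (Nat.centralBinom (e + 1) : ℚ) =
        2 * (2 * e + 1) * (Nat.centralBinom e : ℚ) := by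
      exact_mod_cast Nat.succ_mul_centralBinom_succ e
    have h2 : ((e : ℚ) + 1) ≠ 0 := by positivity
    have h3 : (Nat.centralBinom (e + 1) : ℚ) =
        2 * (2 * e + 1) * (Nat.centralBinom e : ℚ) / ((e : ℚ) + 1) := by
      rw [eq_div_iff h2, ← h1]
      ring
    rw [apos, ih, h3, pow_succ]
    have h4 : (2 * (e : ℚ) + 2) ≠ 0 := by positivity
    field_simp
    ring

theorem aq_int (e : ℤ) : ∃ z : ℤ, aq e = z := by
  rcases e with e | e
  · refine ⟨(-2) ^ e * (Nat.centralBinom e : ℤ), ?_⟩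
    simp only [aq]
    rw [apos_eq]
    push_cast
    ring
  · exact ⟨0, by simp [aq]⟩

theorem mA_int (k : ℕ) (e : ℤ) : ∃ z : ℤ, mA k e = z := by
  choose a ha using aq_int
  by_cases h : Even k
  · refine ⟨∑ i ∈ range (k / 2 + 1), ((k / 2).choose i : ℤ) * 8 ^ (k / 2 - i) * a (e + i), ?_⟩
    rw [mA, if_pos h]
    push_cast
    exact Finset.sum_congr rfl fun i _ => by rw [ha]
  · exact ⟨0, by rw [mA, if_neg h]; simp⟩

theorem LE_int (p : ℤ) (E : ℕ) (F : ℤ[X]) : ∃ z : ℤ, LE p 0 E F = z := by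
  choose a ha using mA_int
  refine ⟨∑ j ∈ range (F.natDegree + 1), F.coeff j * (p * a j (-(E : ℤ))), ?_⟩
  rw [LE_eq_sum p 0 E F (Nat.lt_succ_self _)]
  push_cast
  refine Finset.sum_congr rfl fun j _ => ?_
  rw [cK_nat, ha]
  push_cast
  ring

theorem LE_split (p q : ℤ) (E : ℕ) (F : ℤ[X]) : LE p q E F = LE p 0 E F + q * LE 0 1 E F := by
  rw [LE_eq_sum p q E F (Nat.lt_succ_self _), LE_eq_sum p 0 E F (Nat.lt_succ_self _),
    LE_eq_sum 0 1 E F (Nat.lt_succ_self _), Finset.mul_sum, ← Finset.sum_add_distrib]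
  refine Finset.sum_congr rfl fun j _ => ?_
  rw [cK_nat, cK_nat, cK_nat]
  push_cast
  ring

theorem nu_LE01 (E s f : ℕ) : nu (LE 0 1 E ((X - C 2) ^ s * (X - C 3) ^ f)) ≤ bnd E s := by
  have h1 : ((X - C 2) ^ s * (X - C 3) ^ f : ℤ[X]) = ∑ l ∈ range (f + 1),
      ((-1) ^ (f - l) * (f.choose l : ℤ)) • (X - C 2) ^ (s + l) := by
    have h2 : (X - C 3 : ℤ[X]) = (X - C 2) + (-1) := by
      have e2 : (C (2 : ℤ) : ℤ[X]) = 2 := rfl
      have e3 : (C (3 : ℤ) : ℤ[X]) = 3 := rfl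
      rw [e2, e3]
      ring
    rw [h2, add_pow, Finset.mul_sum]
    refine Finset.sum_congr rfl fun l _ => ?_
    rw [zsmul_eq_mul, pow_add]
    push_cast
    ring
  rw [h1, map_sum]
  refine nu_sum _ _ (bnd_pos E s).le fun l _ => ?_
  rw [map_smul, zsmul_eq_mul]
  refine (nu_int_mul _ _).trans ?_
  have h2 : LE 0 1 E ((X - C 2) ^ (s + l)) = 2 * uu E (s + l) := by
    rw [uu]
    ring
  rw [h2, nu_mul, nu_two]
  have h3 := (nu_uu E (s + l)).trans (bnd_anti E s l)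
  have h4 := bnd_pos E s
  linarith

theorem nu_entry (p q : ℤ) (E s f : ℕ) :
    nu (LE p q E ((X - C 2) ^ s * (X - C 3) ^ f)) ≤ max 1 (bnd E s) := by
  rw [LE_split]
  refine nu_add ?_ ?_
  · obtain ⟨z, hz⟩ := LE_int p E ((X - C 2) ^ s * (X - C 3) ^ f)
    rw [hz]
    exact (nu_int z).trans (le_max_left _ _)
  · exact (nu_int_mul q _).trans ((nu_LE01 E s f).trans (le_max_right _ _))

/-! ### the determinant -/

/-- sum of truncated differences -/
theorem sum_trunc (K : ℕ) : ∀ c : ℕ, 12 * ∑ i ∈ range K, (c - 6 * i) ≤ (c + 6) ^ 2 := by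
  induction K with
  | zero => intro c; simp
  | succ K ih =>
    intro c
    rw [Finset.sum_range_succ', Nat.mul_zero, Nat.sub_zero]
    rcases le_or_gt 6 c with h | h
    · obtain ⟨d, rfl⟩ := Nat.exists_eq_add_of_le h
      have h1 : ∑ i ∈ range K, (6 + d - 6 * (i + 1)) = ∑ i ∈ range K, (d - 6 * i) :=
        Finset.sum_congr rfl fun i _ => by omega
      have h2 := ih d
      rw [h1]
      nlinarith
    · have h1 : ∑ i ∈ range K, (c - 6 * (i + 1)) = 0 :=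
        Finset.sum_eq_zero fun i _ => by omega
      rw [h1]
      nlinarith

theorem entry_four (p q : ℤ) (E b f K i j : ℕ) (hi : i < K) (hj : j < K) :
    padicNorm 2 (LE p q E ((X - C 2) ^ i * (X - C 2) ^ j * wpz b f)) ^ 4 ≤
      (1024 * (2 * (K : ℚ) + b + 5) ^ 4 * 2 ^ (4 * E - 3 * b - 6 * i)) *
        2 ^ (4 * E - 3 * b - 6 * j) := by
  have h1 : ((X - C 2) ^ i * (X - C 2) ^ j * wpz b f : ℤ[X]) =
      (X - C 2) ^ (i + j + b) * (X - C 3) ^ f := by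
    rw [wpz, pow_add, pow_add]
    ring
  have h2 := nu_entry p q E (i + j + b) f
  rw [← h1] at h2
  set x := LE p q E ((X - C 2) ^ i * (X - C 2) ^ j * wpz b f) with hx
  have h3 : padicNorm 2 x ^ 4 = nu x ^ 2 := by unfold nu; rw [← pow_mul]
  have h4 : nu x ^ 2 ≤ (max 1 (bnd E (i + j + b))) ^ 2 := pow_le_pow_left₀ (nu_nonneg x) h2 2
  rw [h3]
  refine h4.trans ?_
  have hS : (1 : ℚ) ≤ 1024 * (2 * (K : ℚ) + b + 5) ^ 4 := by
    have : (1 : ℚ) ≤ (2 * (K : ℚ) + b + 5) ^ 4 := one_le_pow₀ (by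
      have h5 : (0 : ℚ) ≤ K := Nat.cast_nonneg K
      have h6 : (0 : ℚ) ≤ b := Nat.cast_nonneg b
      linarith)
    linarith
  rcases le_total (bnd E (i + j + b)) 1 with h5 | h5
  · rw [max_eq_left h5, one_pow]
    have h6 : (1 : ℚ) ≤ 2 ^ (4 * E - 3 * b - 6 * i) := one_le_pow₀ (by norm_num)
    have h7 : (1 : ℚ) ≤ 2 ^ (4 * E - 3 * b - 6 * j) := one_le_pow₀ (by norm_num)
    exact one_le_mul_of_one_le_of_one_le (one_le_mul_of_one_le_of_one_le hS h6) h7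
  · rw [max_eq_right h5, bnd]
    have h6 : (((i + j + b : ℕ) : ℚ) + 5) ≤ 2 * (K : ℚ) + b + 5 := by
      have h7 : (i : ℚ) ≤ K := by exact_mod_cast hi.le
      have h8 : (j : ℚ) ≤ K := by exact_mod_cast hj.le
      push_cast
      linarith
    have h7 : (0 : ℚ) ≤ (((i + j + b : ℕ) : ℚ) + 5) := by positivity
    have h8 : (32 * (((i + j + b : ℕ) : ℚ) + 5) ^ 2 * 16 ^ E / 8 ^ (i + j + b)) ^ 2 =
        1024 * (((i + j + b : ℕ) : ℚ) + 5) ^ 4 * (2 ^ (8 * E) / 2 ^ (6 * (i + j + b))) := by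
      have e1 : (2 : ℚ) ^ (8 * E) = (16 ^ E) ^ 2 := by
        rw [← pow_mul, mul_comm E 2, pow_mul (16 : ℚ) 2 E, pow_mul (2 : ℚ) 8 E]
        norm_num
      have e2 : (2 : ℚ) ^ (6 * (i + j + b)) = (8 ^ (i + j + b)) ^ 2 := by
        rw [← pow_mul, mul_comm (i + j + b) 2, pow_mul (8 : ℚ) 2, pow_mul (2 : ℚ) 6]
        norm_num
      rw [e1, e2, div_pow]
      ring
    rw [h8]
    have h9 : (2 : ℚ) ^ (8 * E) / 2 ^ (6 * (i + j + b)) ≤
        2 ^ (4 * E - 3 * b - 6 * i) * 2 ^ (4 * E - 3 * b - 6 * j) := by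
      rw [div_le_iff₀ (by positivity), ← pow_add, ← pow_add]
      exact pow_le_pow_right₀ (by norm_num) (by omega)
    have h10 : (((i + j + b : ℕ) : ℚ) + 5) ^ 4 ≤ (2 * (K : ℚ) + b + 5) ^ 4 :=
      pow_le_pow_left₀ h7 h6 4
    calc 1024 * (((i + j + b : ℕ) : ℚ) + 5) ^ 4 * (2 ^ (8 * E) / 2 ^ (6 * (i + j + b)))
        ≤ 1024 * (2 * (K : ℚ) + b + 5) ^ 4 *
          (2 ^ (4 * E - 3 * b - 6 * i) * 2 ^ (4 * E - 3 * b - 6 * j)) := by gcongr
      _ = _ := by ring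

theorem det_four (p q : ℤ) (E b f K : ℕ) :
    padicNorm 2 (NN b f E K p q) ^ 4 ≤ (1024 * (2 * (K : ℚ) + b + 5) ^ 4) ^ K *
      2 ^ (2 * ∑ i ∈ range K, (4 * E - 3 * b - 6 * i)) := by
  have hmon : ∀ i : ℕ, ((X - C 2 : ℤ[X]) ^ i).Monic := fun i => (monic_X_sub_C 2).pow i
  have hdeg : ∀ i : ℕ, ((X - C 2 : ℤ[X]) ^ i).natDegree = i := fun i => by
    rw [natDegree_pow, natDegree_X_sub_C, mul_one]
  rw [NN_basis b f E K p q (fun i => (X - C 2) ^ i) (fun i => (X - C 2) ^ i)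
    (fun i _ => hmon i) (fun i _ => hdeg i) (fun i _ => hmon i) (fun i _ => hdeg i)]
  have h := Det.norm_det_le 2 4 (by norm_num) (Matrix.of fun i j : Fin K =>
      LE p q E ((X - C 2) ^ (i : ℕ) * (X - C 2) ^ (j : ℕ) * wpz b f))
    (fun i => 1024 * (2 * (K : ℚ) + b + 5) ^ 4 * 2 ^ (4 * E - 3 * b - 6 * (i : ℕ)))
    (fun j => 2 ^ (4 * E - 3 * b - 6 * (j : ℕ))) (fun i => by positivity) (fun j => by positivity)
    (fun i j => entry_four p q E b f K i j i.2 j.2)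
  refine h.trans (le_of_eq ?_)
  rw [Finset.prod_mul_distrib, Finset.prod_const, Finset.card_univ, Fintype.card_fin,
    Fin.prod_univ_eq_prod_range (fun i => (2 : ℚ) ^ (4 * E - 3 * b - 6 * i)) K,
    Finset.prod_pow_eq_pow_sum, mul_assoc, ← pow_add, ← two_mul]

theorem log_bound (p q : ℤ) (E b f K : ℕ) (h0 : NN b f E K p q ≠ 0) :
    4 * Real.log ((padicNorm 2 (NN b f E K p q) : ℚ) : ℝ) ≤
      K * Real.log (1024 * (2 * (K : ℝ) + b + 5) ^ 4) +
        (((4 * E - 3 * b : ℕ) : ℝ) + 6) ^ 2 / 6 * Real.log 2 := by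
  have h1 := det_four p q E b f K
  set x := padicNorm 2 (NN b f E K p q) with hx
  have hx0 : 0 < x := lt_of_le_of_ne (padicNorm.nonneg _) (Ne.symm (padicNorm.nonzero h0))
  have h2 : ((x : ℚ) : ℝ) ^ 4 ≤ (1024 * (2 * (K : ℝ) + b + 5) ^ 4) ^ K *
      2 ^ (2 * ∑ i ∈ range K, (4 * E - 3 * b - 6 * i)) := by
    exact_mod_cast h1
  have hx0' : (0 : ℝ) < x := by exact_mod_cast hx0
  have hS : (0 : ℝ) < 1024 * (2 * (K : ℝ) + b + 5) ^ 4 := by positivity
  have h3 := Real.log_le_log (by positivity) h2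
  rw [Real.log_pow, Real.log_mul (by positivity) (by positivity), Real.log_pow, Real.log_pow] at h3
  have h4 := sum_trunc K (4 * E - 3 * b)
  have h5 : ((2 * ∑ i ∈ range K, (4 * E - 3 * b - 6 * i) : ℕ) : ℝ) ≤
      (((4 * E - 3 * b : ℕ) : ℝ) + 6) ^ 2 / 6 := by
    have h6 : ((12 * ∑ i ∈ range K, (4 * E - 3 * b - 6 * i) : ℕ) : ℝ) ≤
        (((4 * E - 3 * b + 6) ^ 2 : ℕ) : ℝ) := by exact_mod_cast h4
    push_cast at h6 ⊢
    linarith
  have h6 := mul_le_mul_of_nonneg_right h5 (Real.log_nonneg (by norm_num : (1 : ℝ) ≤ 2))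
  push_cast at h3 h6 ⊢
  linarith

/-- the error term is `o(n²)` -/
theorem slack_bound (K0 b0 : ℕ) (A B ε : ℝ) (hε : 0 < ε) : ∀ᶠ n : ℕ in atTop, ∀ κ ≤ 2,
    ((K0 * n + κ : ℕ) : ℝ) * Real.log (1024 * (2 * ((K0 * n + κ : ℕ) : ℝ) +
      ((b0 * n : ℕ) : ℝ) + 5) ^ 4) + A * n + B ≤ ε * (n : ℝ) ^ 2 := by
  set D : ℝ := 2 * (K0 : ℝ) + b0 + 9 with hD
  have hlim : Tendsto (fun n : ℕ => ((K0 : ℝ) + 2) * ((Real.log (1024 * D ^ 4)) / n +
      4 * (Real.log n / n)) + A / n + B / n * (1 / n)) atTop (nhds 0) := by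
    have e1 : Tendsto (fun n : ℕ => Real.log (n : ℝ) / n) atTop (nhds 0) := by
      have := (Real.isLittleO_log_id_atTop).tendsto_div_nhds_zero
      exact this.comp tendsto_natCast_atTop_atTop
    have e2 : ∀ c : ℝ, Tendsto (fun n : ℕ => c / (n : ℝ)) atTop (nhds 0) := fun c =>
      tendsto_const_div_atTop_nhds_zero_nat c
    have e3 := (((e2 (Real.log (1024 * D ^ 4))).add (e1.const_mul 4)).const_mul
      ((K0 : ℝ) + 2)).add (e2 A)
    have e4 := e3.add ((e2 B).mul (e2 1))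
    simpa using e4
  have hev := hlim.eventually (gt_mem_nhds hε)
  filter_upwards [hev, eventually_ge_atTop 1] with n hn hn1 κ hκ
  have hn0 : (1 : ℝ) ≤ n := by exact_mod_cast hn1
  have hκ' : (κ : ℝ) ≤ 2 := by exact_mod_cast hκ
  have hK : ((K0 * n + κ : ℕ) : ℝ) ≤ ((K0 : ℝ) + 2) * n := by
    push_cast
    nlinarith
  have hK0 : (0 : ℝ) ≤ ((K0 * n + κ : ℕ) : ℝ) := Nat.cast_nonneg _
  have hD1 : 2 * ((K0 * n + κ : ℕ) : ℝ) + ((b0 * n : ℕ) : ℝ) + 5 ≤ D * n := by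
    rw [hD]
    push_cast
    nlinarith
  have hD0 : 0 < D := by rw [hD]; positivity
  have hlog : Real.log (1024 * (2 * ((K0 * n + κ : ℕ) : ℝ) + ((b0 * n : ℕ) : ℝ) + 5) ^ 4) ≤
      Real.log (1024 * D ^ 4) + 4 * Real.log n := by
    have h1 : Real.log (1024 * D ^ 4) + 4 * Real.log n = Real.log (1024 * (D * n) ^ 4) := by
      have h2 : 4 * Real.log n = Real.log ((n : ℝ) ^ 4) := by
        rw [Real.log_pow]
        norm_num
      rw [h2, ← Real.log_mul (by positivity) (by positivity), mul_pow, mul_assoc]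
    rw [h1]
    refine Real.log_le_log (by positivity) ?_
    gcongr
  have hlog0 : 0 ≤ Real.log (1024 * (2 * ((K0 * n + κ : ℕ) : ℝ) + ((b0 * n : ℕ) : ℝ) + 5) ^ 4) := by
    refine Real.log_nonneg ?_
    have : (1 : ℝ) ≤ (2 * ((K0 * n + κ : ℕ) : ℝ) + ((b0 * n : ℕ) : ℝ) + 5) ^ 4 :=
      one_le_pow₀ (by
        have : (0 : ℝ) ≤ ((b0 * n : ℕ) : ℝ) := Nat.cast_nonneg _
        linarith)
    linarith
  have h1 : ((K0 * n + κ : ℕ) : ℝ) * Real.log (1024 * (2 * ((K0 * n + κ : ℕ) : ℝ) +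
      ((b0 * n : ℕ) : ℝ) + 5) ^ 4) ≤ ((K0 : ℝ) + 2) * n *
      (Real.log (1024 * D ^ 4) + 4 * Real.log n) :=
    mul_le_mul hK hlog hlog0 (by positivity)
  have h2 := mul_le_mul_of_nonneg_right hn.le (by positivity : (0 : ℝ) ≤ (n : ℝ) ^ 2)
  have h3 : (((K0 : ℝ) + 2) * ((Real.log (1024 * D ^ 4)) / n + 4 * (Real.log n / n)) + A / n +
      B / n * (1 / n)) * (n : ℝ) ^ 2 = ((K0 : ℝ) + 2) * n *
      (Real.log (1024 * D ^ 4) + 4 * Real.log n) + A * n + B := by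
    field_simp
  linarith

/-- **the prime 2** -/
theorem twoBound (K0 b0 f0 E0 : ℕ) (hb : 3 * b0 ≤ 4 * E0) :
    TwoBound K0 b0 f0 E0 ((2 * (E0 : ℝ) - 3 / 2 * b0) ^ 2 / 6 * Real.log 2) := by
  intro ε hε
  set g : ℝ := 4 * (E0 : ℝ) - 3 * b0 with hg
  have hsl := slack_bound K0 b0 (2 * g * Real.log 2) (6 * Real.log 2) (4 * ε) (by positivity)
  filter_upwards [hsl] with n hn κ hκ p q _ h0
  have h1 := log_bound p q (E0 * n) (b0 * n) (f0 * n) (K0 * n + κ) h0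
  have h2 := hn κ hκ
  have h3 : ((4 * (E0 * n) - 3 * (b0 * n) : ℕ) : ℝ) = g * n := by
    rw [hg, Nat.cast_sub (by
      have := Nat.mul_le_mul_right n hb
      nlinarith)]
    push_cast
    ring
  rw [h3] at h1
  have h4 : (g * n + 6) ^ 2 / 6 * Real.log 2 = 4 * ((2 * (E0 : ℝ) - 3 / 2 * b0) ^ 2 / 6 *
      Real.log 2) * (n : ℝ) ^ 2 + 2 * g * Real.log 2 * n + 6 * Real.log 2 := by
    rw [hg]
    ring
  rw [h4] at h1
  push_cast at h1 h2 ⊢
  linarith

end Vale.Agent.P021.R2.H120
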