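import Vale.Agent.P021.R2.H332.Arch
import Vale.Agent.P021.R2.H332.RCert
import Vale.Agent.P021.R2.H636.PathUU
import Vale.Agent.P021.R2.H636.NonVan
import Vale.Agent.P021.R2.H120.Two

/-!
# Assembly: from a checked certificate on two polygons to the irrationality exponent
-/

set_option autoImplicit false

open Polynomial

namespace Vale.Agent.P021.R2.H120

open Vale.Agent.P021.R2 Vale.Agent.P021.R2.H636 Vale.Agent.P021.R2.H332
open Vale.Agent.P021.Det (PathIn segment_bounded pnt10 cu cu_pos)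

/-- the union of the edges of a polygon, vertices in units `1/1024` -/
noncomputable def edges : ℤ × ℤ → List (ℤ × ℤ) → Set ℂ
  | _, [] => ∅
  | u, v :: l => segment ℝ (pnt10 u) (pnt10 v) ∪ edges v l

theorem edges_mono (S : Set ℂ) : ∀ (l : List (ℤ × ℤ)) (u : ℤ × ℤ), edges u l ⊆ S →
    PathIn S ((u :: l).map pnt10) := by
  intro l
  induction l with
  | nil => intro u _; trivial
  | cons v l ih =>
    intro u h
    exact ⟨Set.subset_union_left.trans h, ih v (Set.subset_union_right.trans h)⟩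

theorem edges_path (u : ℤ × ℤ) (l : List (ℤ × ℤ)) : PathIn (edges u l) ((u :: l).map pnt10) :=
  edges_mono _ l u subset_rfl

theorem edges_bounded : ∀ (l : List (ℤ × ℤ)) (u : ℤ × ℤ), Bornology.IsBounded (edges u l) := by
  intro l
  induction l with
  | nil => intro u; exact Bornology.isBounded_empty
  | cons v l ih => intro u; exact (segment_bounded _ _).union (ih v)

theorem pnt10_real (a : ℤ) : pnt10 (a, 0) = (((a : ℝ) / 1024 : ℝ) : ℂ) := by
  unfold pnt10
  push_cast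
  norm_num

theorem pnt10_im (v : ℤ × ℤ) (h : 0 < v.2) : 0 < (pnt10 v).im := by
  have h2 : pnt10 v = (((v.1 : ℝ) / 1024 : ℝ) : ℂ) + (((v.2 : ℝ) / 1024 : ℝ) : ℂ) *
      Complex.I := by
    unfold pnt10
    push_cast
    norm_num
  have h3 : (0 : ℝ) < v.2 := by exact_mod_cast h
  rw [h2, Complex.add_im, Complex.ofReal_im, Complex.im_ofReal_mul, Complex.I_im]
  positivity

theorem path_UU (a c : ℤ) (l : List (ℤ × ℤ)) (ha : pnt10 (a, 0) ∈ UU) (hc : pnt10 (c, 0) ∈ UU)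
    (hl : ∀ v ∈ l, 0 < v.2) (hne : l ≠ []) :
    PathIn UU (((a, 0) :: (l ++ [(c, 0)])).map pnt10) := by
  have h := PathIn_UU_of (l.map pnt10) (pnt10 (a, 0)) (pnt10 (c, 0)) ha hc
    (fun v hv => by
      obtain ⟨u, hu, rfl⟩ := List.mem_map.1 hv
      exact pnt10_im u (hl u hu)) (by simpa using hne)
  simpa using h

theorem big_gt {a : ℤ} (ha : 2897 ≤ a) : s8 < (a : ℝ) / 1024 := by
  have h := s8_lt'
  have h2 : (2897 : ℝ) ≤ a := by exact_mod_cast ha
  linarith

theorem small_lt {a : ℤ} (ha : a ≤ -2897) : (a : ℝ) / 1024 < -s8 := by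
  have h := s8_lt'
  have h2 : (a : ℝ) ≤ -2897 := by exact_mod_cast ha
  linarith

theorem big_mem {a : ℤ} (ha : 2897 ≤ a) : pnt10 (a, 0) ∈ UU := by
  rw [pnt10_real]
  have := big_gt ha
  have h2 := s8_pos
  exact real_mem_UU this.ne' (by linarith)

theorem small_mem {a : ℤ} (ha : a ≤ -2897) : pnt10 (a, 0) ∈ UU := by
  rw [pnt10_real]
  have := small_lt ha
  have h2 := s8_pos
  exact real_mem_UU (by linarith) this.ne

theorem two_mem : pnt10 (2048, 0) ∈ UU := by
  have h : pnt10 (2048, 0) = 2 := by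
    rw [pnt10_real]
    norm_num
  rw [h]
  exact two_mem_UU

theorem getLast_map2 (u w : ℤ × ℤ) (l : List (ℤ × ℤ)) :
    ((u :: (l ++ [w])).map pnt10).getLast? = some (pnt10 w) := by
  rw [List.getLast?_map, ← List.cons_append, List.getLast?_append]
  rfl

theorem funBound_S (a : ℤ) (l : List (ℤ × ℤ)) (ha : 2897 ≤ a) (hl : ∀ v ∈ l, 0 < v.2)
    (hne : l ≠ []) : FunBound (Lam Real.pi) (edges (a, 0) (l ++ [(2048, 0)])) := by
  refine funBound_Lam (((a, 0) :: (l ++ [(2048, 0)])).map pnt10) ((a : ℝ) / 1024) (big_gt ha)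
    ?_ ?_ (path_UU a 2048 l (big_mem ha) two_mem hl hne) _ (edges_path _ _)
  · simp [pnt10_real]
  · rw [getLast_map2, pnt10_real]
    norm_num

theorem funBound_T (a c : ℤ) (l : List (ℤ × ℤ)) (ha : 2897 ≤ a) (hc : c ≤ -2897)
    (hl : ∀ v ∈ l, 0 < v.2) (hne : l ≠ []) : FunBound Bet (edges (a, 0) (l ++ [(c, 0)])) := by
  refine funBound_Bet (((a, 0) :: (l ++ [(c, 0)])).map pnt10) ((a : ℝ) / 1024) ((c : ℝ) / 1024)
    (big_gt ha) (small_lt hc) ?_ ?_ (path_UU a c l (big_mem ha) (small_mem hc) hl hne) _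
    (edges_path _ _)
  · simp [pnt10_real]
  · rw [getLast_map2, pnt10_real]

/-- scaling of the arithmetic estimate -/
theorem arith_scale {K0 b f E : ℕ} {c : ℝ} (h : ArithLower K0 b f E c) {m : ℕ} (hm : 0 < m) :
    ArithLower (K0 * m) (b * m) (f * m) (E * m) (c * (m : ℝ) ^ 2) := by
  intro ε hε
  have hm' : (0 : ℝ) < m := by exact_mod_cast hm
  have h1 := h (ε / (m : ℝ) ^ 2) (by positivity)
  have ht : Filter.Tendsto (fun n : ℕ => m * n) Filter.atTop Filter.atTop :=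
    Filter.tendsto_id.const_mul_atTop' hm
  refine (ht.eventually h1).mono fun n hn κ hκ p q hq hne => ?_
  rw [mul_assoc K0, mul_assoc b, mul_assoc f, mul_assoc E] at hne ⊢
  have h2 := hn κ hκ p q hq hne
  refine le_trans (le_of_eq ?_) h2
  congr 1
  push_cast
  field_simp

/-- **assembly** -/
theorem final_poly (fs : List RFac) (lev : List (List ℕ × ℤ)) (ds : List ℕ)
    (K0 b f E N : ℕ) (ex tot : ℤ) (a a' c' : ℤ) (lS lT : List (ℤ × ℤ))
    (hN : lev.length = N + 1) (hdeg : degOK fs lev ds = true) (h0 : ds.getD 0 0 = 0)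
    (hK : ds.getD N 0 = K0) (hlt : ∀ j < N, ds.getD j 0 < ds.getD (j + 1) 0)
    (htot : totL ds lev = tot)
    (ha : 2897 ≤ a) (ha' : 2897 ≤ a') (hc' : c' ≤ -2897)
    (hlS : ∀ v ∈ lS, 0 < v.2) (hlS' : lS ≠ []) (hlT : ∀ v ∈ lT, 0 < v.2) (hlT' : lT ≠ [])
    (hS : ∀ s ∈ edges (a, 0) (lS ++ [(2048, 0)]), GoodR fs b f E lev 0 s)
    (hT : ∀ s ∈ edges (a', 0) (lT ++ [(c', 0)]), GoodR fs b f E lev ex s)
    {c μ0 : ℝ} (hA : ArithLower K0 (2 * b) (2 * f) (2 * E) c) (hK0 : 0 < K0) (hex : 0 < ex)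
    (hE : 2 * (2 * E) ≤ 2 * b + 2 * f) (hδ : 0 < -((tot : ℝ) / 2 * cu) - c)
    (hμ : (ex : ℝ) * cu * K0 ≤ μ0 * (-((tot : ℝ) / 2 * cu) - c)) :
    irrationalityExponent Real.pi ≤ (μ0 : EReal) := by
  set C := mkCert fs lev ds K0 b f E N ex _ _ hN hdeg h0 hK hlt hS hT with hC
  have htotal : C.total = (tot : ℝ) / 2 * cu := by
    rw [hC, mkCert_total, htot]
  have hU : ArchUpper K0 (2 * b) (2 * f) (2 * E) ((ex : ℝ) * cu) C.total :=
    arch_upper C (funBound_S a lS ha hlS hlS') (funBound_T a' c' lT ha' hc' hlT hlT')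
      (edges_bounded _ _) (edges_bounded _ _)
  have hex' : (0 : ℝ) < ex := by exact_mod_cast hex
  have hcu : 0 < cu := cu_pos
  refine final_of hK0 (mul_pos hex' hcu) hE hA hU nonVan ?_ ?_
  · rw [htotal]
    exact hδ
  · rw [htotal]
    exact hμ

end Vale.Agent.P021.R2.H120
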