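import Vale.Agent.PNT.Main

/-!
# P021: denominators `lcm(1, ..., m)` and sums of fractions with denominators at most `m`
-/

open Filter Topology

namespace Vale.Agent.P021.R2.H120

/-- From a bound for the denominators divisible by all odd primes up to `5/8 log q` to the
denominators `lcm(1, ..., m)`. -/
theorem lcm_of (h1 : ∃ Q : ℝ, ∀ (p : ℤ) (q : ℕ), Q < q →
      (∀ l : ℕ, l.Prime → l ≠ 2 → (l : ℝ) ≤ 5 / 8 * Real.log q → l ∣ q) →
      (q : ℝ) ^ (-(2.53 : ℝ)) < |Real.pi - (p : ℝ) / (q : ℝ)|) :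
    ∃ M : ℕ, ∀ m : ℕ, M ≤ m →
      (∀ p : ℤ, Real.exp (-(2.54 * m)) <
        |Real.pi - (p : ℝ) / (((Finset.Icc 1 m).lcm id : ℕ) : ℝ)|) ∧
      (∀ a : ℕ → ℤ, Real.exp (-(2.54 * m)) <
        |Real.pi - ∑ j ∈ Finset.Icc 1 m, (a j : ℝ) / (j : ℝ)|) ∧
      Real.exp (-(1.54 * m)) <
        |(((Finset.Icc 1 m).lcm id : ℕ) : ℝ) * Real.pi -
          round ((((Finset.Icc 1 m).lcm id : ℕ) : ℝ) * Real.pi)| := by
  obtain ⟨Q, hQ⟩ := h1
  have ht := Vale.Agent.PNT.log_lcmUpto_div_tendsto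
  have h2 : ∀ᶠ m : ℕ in atTop, (0.9 : ℝ) < Real.log (Nat.lcmUpto m) / m ∧
      Real.log (Nat.lcmUpto m) / m < 1.0039 :=
    (ht.eventually_const_lt (by norm_num)).and (ht.eventually_lt_const (by norm_num))
  have h3 : ∀ᶠ m : ℕ in atTop, Q < Real.exp (0.9 * m) := by
    have : Tendsto (fun m : ℕ => Real.exp (0.9 * (m : ℝ))) atTop atTop :=
      Real.tendsto_exp_atTop.comp (tendsto_natCast_atTop_atTop.const_mul_atTop (by norm_num))
    exact this.eventually_gt_atTop Q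
  obtain ⟨M, hM⟩ := eventually_atTop.1 ((h2.and h3).and (eventually_ge_atTop 1))
  refine ⟨M, fun m hm => ?_⟩
  obtain ⟨⟨⟨hlo, hhi⟩, hq⟩, hm1⟩ := hM m hm
  have hm0 : (0 : ℝ) < m := by exact_mod_cast hm1
  set L : ℕ := (Finset.Icc 1 m).lcm id with hL
  have hLe : Nat.lcmUpto m = L := rfl
  rw [hLe] at hlo hhi
  have hLpos : 0 < L := by rw [← hLe]; exact Nat.lcmUpto_pos m
  have hL0 : (0 : ℝ) < L := by exact_mod_cast hLpos
  have hlo' : 0.9 * (m : ℝ) < Real.log L := (lt_div_iff₀ hm0).1 hlo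
  have hhi' : Real.log L < 1.0039 * m := (div_lt_iff₀ hm0).1 hhi
  have hdvd : ∀ j : ℕ, 1 ≤ j → j ≤ m → j ∣ L := fun j h1 h2 =>
    Finset.dvd_lcm (f := id) (Finset.mem_Icc.2 ⟨h1, h2⟩)
  have hQL : Q < (L : ℝ) := by
    refine hq.trans ?_
    calc Real.exp (0.9 * m) < Real.exp (Real.log L) := Real.exp_lt_exp.2 hlo'
      _ = L := Real.exp_log hL0
  have hl : ∀ l : ℕ, l.Prime → l ≠ 2 → (l : ℝ) ≤ 5 / 8 * Real.log L → l ∣ L := by
    intro l hl _ hle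
    refine hdvd l hl.one_lt.le ?_
    have : (l : ℝ) ≤ m := by nlinarith
    exact_mod_cast this
  have hmain : ∀ p : ℤ, (L : ℝ) ^ (-(2.53 : ℝ)) < |Real.pi - (p : ℝ) / (L : ℝ)| :=
    fun p => hQ p L hQL hl
  have hpow : Real.exp (-(2.54 * m)) ≤ (L : ℝ) ^ (-(2.53 : ℝ)) := by
    rw [Real.rpow_def_of_pos hL0]
    apply Real.exp_le_exp.2
    nlinarith
  refine ⟨fun p => hpow.trans_lt (hmain p), fun a => ?_, ?_⟩
  · have hs : ∑ j ∈ Finset.Icc 1 m, (a j : ℝ) / (j : ℝ) =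
        ((∑ j ∈ Finset.Icc 1 m, a j * ((L / j : ℕ) : ℤ) : ℤ) : ℝ) / (L : ℝ) := by
      simp only [Int.cast_sum, Int.cast_mul, Int.cast_natCast]
      rw [Finset.sum_div]
      refine Finset.sum_congr rfl fun j hj => ?_
      obtain ⟨hj1, hj2⟩ := Finset.mem_Icc.1 hj
      have hj0 : (j : ℝ) ≠ 0 := by
        have : (0 : ℝ) < j := by exact_mod_cast hj1
        exact this.ne'
      rw [Nat.cast_div (hdvd j hj1 hj2) hj0]
      field_simp
    rw [hs]
    exact hpow.trans_lt (hmain _)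
  · set r : ℤ := round ((L : ℝ) * Real.pi) with hr
    have h4 := hmain r
    have h5 : (L : ℝ) * Real.pi - r = L * (Real.pi - r / L) := by
      field_simp
    rw [h5, abs_mul, abs_of_pos hL0]
    have h6 : Real.exp (-(1.54 * m)) ≤ L * (L : ℝ) ^ (-(2.53 : ℝ)) := by
      have : (L : ℝ) * (L : ℝ) ^ (-(2.53 : ℝ)) = (L : ℝ) ^ (-(1.53 : ℝ)) := by
        nth_rewrite 1 [← Real.rpow_one (L : ℝ)]
        rw [← Real.rpow_add hL0]
        norm_num
      rw [this, Real.rpow_def_of_pos hL0]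
      apply Real.exp_le_exp.2
      nlinarith
    exact h6.trans_lt ((mul_lt_mul_iff_right₀ hL0).2 h4)

end Vale.Agent.P021.R2.H120
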