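import Vale.Agent.P021.R2.H120.Two
import Vale.Agent.P021.R2.H691.Spec

/-!
# The prime 2 in the rational determinants, for denominators divisible by a large power of 2
-/

set_option autoImplicit false

open Polynomial Finset Filter

namespace Vale.Agent.P021.R2.H120

open Vale.Agent.P021.R2.H636 Vale.Agent.P021.R2.H542 Vale.Agent.P021.R2.H691

theorem nu_of_dvd {v : ℕ} {q : ℤ} (h : (2 : ℤ) ^ v ∣ q) : nu (q : ℚ) ≤ 1 / 4 ^ v := by
  obtain ⟨z, rfl⟩ := h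
  push_cast
  rw [nu_mul]
  have h1 : nu ((2 : ℚ) ^ v) = 1 / 4 ^ v := by
    induction v with
    | zero =>
      have := nu_mul 1 1
      simp only [pow_zero, div_one]
      unfold nu
      rw [padicNorm.one]
      norm_num
    | succ v ih =>
      rw [pow_succ, nu_mul, ih, nu_two, pow_succ]
      field_simp
  rw [h1]
  have h2 := nu_int z
  have h3 : (0 : ℚ) ≤ 1 / 4 ^ v := by positivity
  calc 1 / 4 ^ v * nu (z : ℚ) ≤ 1 / 4 ^ v * 1 := by gcongr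
    _ = 1 / 4 ^ v := mul_one _

theorem nu_entryR (p q : ℤ) (E s f v : ℕ) (hv : (2 : ℤ) ^ v ∣ q) :
    nu (LE p q E ((X - C 2) ^ s * (X - C 3) ^ f)) ≤ max 1 (bnd E s / 4 ^ v) := by
  rw [LE_split]
  refine nu_add ?_ ?_
  · obtain ⟨z, hz⟩ := LE_int p E ((X - C 2) ^ s * (X - C 3) ^ f)
    rw [hz]
    exact (nu_int z).trans (le_max_left _ _)
  · refine le_trans ?_ (le_max_right _ _)
    rw [nu_mul]
    calc nu (q : ℚ) * nu (LE 0 1 E ((X - C 2) ^ s * (X - C 3) ^ f))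
        ≤ 1 / 4 ^ v * bnd E s :=
          mul_le_mul (nu_of_dvd hv) (nu_LE01 E s f) (nu_nonneg _) (by positivity)
      _ = bnd E s / 4 ^ v := by ring

theorem entry_fourR (p q : ℤ) (E b f K v i j : ℕ) (hv : (2 : ℤ) ^ v ∣ q) (hi : i < K)
    (hj : j < K) :
    padicNorm 2 (LE p q E ((X - C 2) ^ i * (X - C 2) ^ j * wpz b f)) ^ 4 ≤
      (1024 * (2 * (K : ℚ) + b + 5) ^ 4 * 2 ^ (4 * E - 3 * b - 2 * v - 6 * i)) *
        2 ^ (4 * E - 3 * b - 2 * v - 6 * j) := by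
  have h1 : ((X - C 2) ^ i * (X - C 2) ^ j * wpz b f : ℤ[X]) =
      (X - C 2) ^ (i + j + b) * (X - C 3) ^ f := by
    rw [wpz, pow_add, pow_add]
    ring
  have h2 := nu_entryR p q E (i + j + b) f v hv
  rw [← h1] at h2
  set x := LE p q E ((X - C 2) ^ i * (X - C 2) ^ j * wpz b f) with hx
  have h3 : padicNorm 2 x ^ 4 = nu x ^ 2 := by unfold nu; rw [← pow_mul]
  have h4 : nu x ^ 2 ≤ (max 1 (bnd E (i + j + b) / 4 ^ v)) ^ 2 :=
    pow_le_pow_left₀ (nu_nonneg x) h2 2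
  rw [h3]
  refine h4.trans ?_
  have hS : (1 : ℚ) ≤ 1024 * (2 * (K : ℚ) + b + 5) ^ 4 := by
    have : (1 : ℚ) ≤ (2 * (K : ℚ) + b + 5) ^ 4 := one_le_pow₀ (by
      have h5 : (0 : ℚ) ≤ K := Nat.cast_nonneg K
      have h6 : (0 : ℚ) ≤ b := Nat.cast_nonneg b
      linarith)
    linarith
  rcases le_total (bnd E (i + j + b) / 4 ^ v) 1 with h5 | h5
  · rw [max_eq_left h5, one_pow]
    have h6 : (1 : ℚ) ≤ 2 ^ (4 * E - 3 * b - 2 * v - 6 * i) := one_le_pow₀ (by norm_num)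
    have h7 : (1 : ℚ) ≤ 2 ^ (4 * E - 3 * b - 2 * v - 6 * j) := one_le_pow₀ (by norm_num)
    exact one_le_mul_of_one_le_of_one_le (one_le_mul_of_one_le_of_one_le hS h6) h7
  · rw [max_eq_right h5, bnd]
    have h6 : (((i + j + b : ℕ) : ℚ) + 5) ≤ 2 * (K : ℚ) + b + 5 := by
      have h7 : (i : ℚ) ≤ K := by exact_mod_cast hi.le
      have h8 : (j : ℚ) ≤ K := by exact_mod_cast hj.le
      push_cast
      linarith
    have h7 : (0 : ℚ) ≤ (((i + j + b : ℕ) : ℚ) + 5) := by positivity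
    have h8 : (32 * (((i + j + b : ℕ) : ℚ) + 5) ^ 2 * 16 ^ E / 8 ^ (i + j + b) / 4 ^ v) ^ 2 =
        1024 * (((i + j + b : ℕ) : ℚ) + 5) ^ 4 *
          (2 ^ (8 * E) / 2 ^ (6 * (i + j + b) + 4 * v)) := by
      have e1 : (2 : ℚ) ^ (8 * E) = (16 ^ E) ^ 2 := by
        rw [← pow_mul, mul_comm E 2, pow_mul (16 : ℚ) 2 E, pow_mul (2 : ℚ) 8 E]
        norm_num
      have e2 : (2 : ℚ) ^ (6 * (i + j + b)) = (8 ^ (i + j + b)) ^ 2 := by
        rw [← pow_mul, mul_comm (i + j + b) 2, pow_mul (8 : ℚ) 2, pow_mul (2 : ℚ) 6]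
        norm_num
      have e3 : (2 : ℚ) ^ (4 * v) = (4 ^ v) ^ 2 := by
        rw [← pow_mul, mul_comm v 2, pow_mul (4 : ℚ) 2, pow_mul (2 : ℚ) 4]
        norm_num
      rw [pow_add (2 : ℚ) (6 * (i + j + b)) (4 * v), e1, e2, e3, div_pow, div_pow]
      field_simp
      ring
    rw [h8]
    have h9 : (2 : ℚ) ^ (8 * E) / 2 ^ (6 * (i + j + b) + 4 * v) ≤
        2 ^ (4 * E - 3 * b - 2 * v - 6 * i) * 2 ^ (4 * E - 3 * b - 2 * v - 6 * j) := by
      rw [div_le_iff₀ (by positivity), ← pow_add, ← pow_add]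
      exact pow_le_pow_right₀ (by norm_num) (by omega)
    have h10 : (((i + j + b : ℕ) : ℚ) + 5) ^ 4 ≤ (2 * (K : ℚ) + b + 5) ^ 4 :=
      pow_le_pow_left₀ h7 h6 4
    calc 1024 * (((i + j + b : ℕ) : ℚ) + 5) ^ 4 * (2 ^ (8 * E) / 2 ^ (6 * (i + j + b) + 4 * v))
        ≤ 1024 * (2 * (K : ℚ) + b + 5) ^ 4 *
          (2 ^ (4 * E - 3 * b - 2 * v - 6 * i) * 2 ^ (4 * E - 3 * b - 2 * v - 6 * j)) := by gcongr
      _ = _ := by ring

theorem det_fourR (p q : ℤ) (E b f K v : ℕ) (hv : (2 : ℤ) ^ v ∣ q) :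
    padicNorm 2 (NN b f E K p q) ^ 4 ≤ (1024 * (2 * (K : ℚ) + b + 5) ^ 4) ^ K *
      2 ^ (2 * ∑ i ∈ range K, (4 * E - 3 * b - 2 * v - 6 * i)) := by
  have hmon : ∀ i : ℕ, ((X - C 2 : ℤ[X]) ^ i).Monic := fun i => (monic_X_sub_C 2).pow i
  have hdeg : ∀ i : ℕ, ((X - C 2 : ℤ[X]) ^ i).natDegree = i := fun i => by
    rw [natDegree_pow, natDegree_X_sub_C, mul_one]
  rw [NN_basis b f E K p q (fun i => (X - C 2) ^ i) (fun i => (X - C 2) ^ i)
    (fun i _ => hmon i) (fun i _ => hdeg i) (fun i _ => hmon i) (fun i _ => hdeg i)]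
  have h := Det.norm_det_le 2 4 (by norm_num) (Matrix.of fun i j : Fin K =>
      LE p q E ((X - C 2) ^ (i : ℕ) * (X - C 2) ^ (j : ℕ) * wpz b f))
    (fun i => 1024 * (2 * (K : ℚ) + b + 5) ^ 4 * 2 ^ (4 * E - 3 * b - 2 * v - 6 * (i : ℕ)))
    (fun j => 2 ^ (4 * E - 3 * b - 2 * v - 6 * (j : ℕ))) (fun i => by positivity)
    (fun j => by positivity)
    (fun i j => entry_fourR p q E b f K v i j hv i.2 j.2)
  refine h.trans (le_of_eq ?_)
  rw [Finset.prod_mul_distrib, Finset.prod_const, Finset.card_univ, Fintype.card_fin,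
    Fin.prod_univ_eq_prod_range (fun i => (2 : ℚ) ^ (4 * E - 3 * b - 2 * v - 6 * i)) K,
    Finset.prod_pow_eq_pow_sum, mul_assoc, ← pow_add, ← two_mul]

theorem log_boundR (p q : ℤ) (E b f K v : ℕ) (hv : (2 : ℤ) ^ v ∣ q) (h0 : NN b f E K p q ≠ 0) :
    4 * Real.log ((padicNorm 2 (NN b f E K p q) : ℚ) : ℝ) ≤
      K * Real.log (1024 * (2 * (K : ℝ) + b + 5) ^ 4) +
        (((4 * E - 3 * b - 2 * v : ℕ) : ℝ) + 6) ^ 2 / 6 * Real.log 2 := by
  have h1 := det_fourR p q E b f K v hv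
  set x := padicNorm 2 (NN b f E K p q) with hx
  have hx0 : 0 < x := lt_of_le_of_ne (padicNorm.nonneg _) (Ne.symm (padicNorm.nonzero h0))
  have h2 : ((x : ℚ) : ℝ) ^ 4 ≤ (1024 * (2 * (K : ℝ) + b + 5) ^ 4) ^ K *
      2 ^ (2 * ∑ i ∈ range K, (4 * E - 3 * b - 2 * v - 6 * i)) := by
    exact_mod_cast h1
  have hx0' : (0 : ℝ) < x := by exact_mod_cast hx0
  have hS : (0 : ℝ) < 1024 * (2 * (K : ℝ) + b + 5) ^ 4 := by positivity
  have h3 := Real.log_le_log (by positivity) h2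
  rw [Real.log_pow, Real.log_mul (by positivity) (by positivity), Real.log_pow, Real.log_pow] at h3
  have h4 := sum_trunc K (4 * E - 3 * b - 2 * v)
  have h5 : ((2 * ∑ i ∈ range K, (4 * E - 3 * b - 2 * v - 6 * i) : ℕ) : ℝ) ≤
      (((4 * E - 3 * b - 2 * v : ℕ) : ℝ) + 6) ^ 2 / 6 := by
    have h6 : ((12 * ∑ i ∈ range K, (4 * E - 3 * b - 2 * v - 6 * i) : ℕ) : ℝ) ≤
        (((4 * E - 3 * b - 2 * v + 6) ^ 2 : ℕ) : ℝ) := by exact_mod_cast h4
    push_cast at h6 ⊢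
    linarith
  have h6 := mul_le_mul_of_nonneg_right h5 (Real.log_nonneg (by norm_num : (1 : ℝ) ≤ 2))
  push_cast at h3 h6 ⊢
  linarith

/-- **the prime 2**, denominators divisible by `2 ^ (v0 n)` -/
theorem twoBoundR (K0 b0 f0 E0 v0 : ℕ) (h : 3 * b0 + 2 * v0 ≤ 4 * E0) :
    TwoBoundR K0 b0 f0 E0 v0 ((4 * (E0 : ℝ) - 3 * b0 - 2 * v0) ^ 2 / 24 * Real.log 2) := by
  intro ε hε
  set g : ℝ := 4 * (E0 : ℝ) - 3 * b0 - 2 * v0 with hg
  have hsl := slack_bound K0 b0 (2 * g * Real.log 2) (6 * Real.log 2) (4 * ε) (by positivity)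
  filter_upwards [hsl] with n hn κ hκ p q _ hdvd h0
  have h1 := log_boundR p q (E0 * n) (b0 * n) (f0 * n) (K0 * n + κ) (v0 * n) hdvd h0
  have h2 := hn κ hκ
  have h3 : ((4 * (E0 * n) - 3 * (b0 * n) - 2 * (v0 * n) : ℕ) : ℝ) = g * n := by
    have hm := Nat.mul_le_mul_right n h
    have e : 4 * (E0 * n) - 3 * (b0 * n) - 2 * (v0 * n) =
        4 * (E0 * n) - (3 * (b0 * n) + 2 * (v0 * n)) := by omega
    rw [e, hg, Nat.cast_sub (by nlinarith)]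
    push_cast
    ring
  rw [h3] at h1
  have h4 : (g * n + 6) ^ 2 / 6 * Real.log 2 = 4 * (g ^ 2 / 24 *
      Real.log 2) * (n : ℝ) ^ 2 + 2 * g * Real.log 2 * n + 6 * Real.log 2 := by
    ring
  rw [h4] at h1
  push_cast at h1 h2 ⊢
  linarith

end Vale.Agent.P021.R2.H120
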